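import Vale.Agent.P333.Y.Defs
import Vale.Agent.P333.X.PTd
import Vale.Agent.P333.H70.Splice

set_option linter.all false

/-!
P333, ratio `2`: the closed walks and the output are computable in polynomial time.
-/

namespace Vale.Agent.P333.H514

open Vale.Agent.P333 Vale.Agent.P333.U Vale.Agent.P333.E Vale.Agent.P333.G Vale.Agent.P333.Y
  Vale.Agent.Lib.PolyTime

variable {A : Set Word} {α β γ : Type*} [Enc α] [Enc β] [Enc γ]

/-! ### Generic functions -/

theorem idxOf_eq (l : List (List ℕ)) (s : List ℕ) :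
    l.idxOf s = (l.takeWhile (fun x => !decide (x = s))).length := by
  induction l with
  | nil => rfl
  | cons x l ih =>
    rw [List.idxOf_cons]
    by_cases h : x = s
    · simp [h]
    · have h' : (x == s) = false := by simpa using h
      simp [h, h', ih]

theorem PT_idxOf {l : α → List (List ℕ)} {s : α → List ℕ} (hl : PT A l) (hs : PT A s) :
    PT A (fun a => (l a).idxOf (s a)) := by
  refine (PT.length (PT.takeWhile (f := fun a x => !decide (x = s a)) hl ?_)).congr fun a =>
    (idxOf_eq _ _).symm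
  exact (PT_eqStr PT.snd' (hs.comp PT.fst')).not

theorem PT_cprsG (d : γ) {c : α → List γ} (hc : PT A c) : PT A (fun a => cprs d (c a)) := by
  refine (PT.zip hc (PT.append hc.tail (PT.cons (PT.headD hc (PT.const d)) PT.nil))).congr
    fun a => ?_
  unfold cprs
  rw [prsC_eq]

theorem PT_memCir {l : α → List Cir} {x : α → Cir} (hl : PT A l) (hx : PT A x) :
    PT A (fun a => decide (x a ∈ l a)) :=
  (PT.mem' (eqPT_list eqPT_str) hl hx).congr fun a => by
    rw [Bool.eq_iff_iff]
    simp only [decide_eq_true_eq]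

/-! ### Walks -/

theorem PT_trav {n : α → Cir} {x h : α → List ℕ} (hn : PT A n) (hx : PT A x) (hh : PT A h) :
    PT A (fun a => trav (n a) (x a) (h a)) := by
  unfold trav
  have h1 : PT A (fun a => (n a).rotate ((n a).idxOf (x a))) := X.PT_rotate hn (PT_idxOf hn hx)
  exact PT.append h1 (PT.take h1 (PT.mod (PT.add (PT_idxOf h1 hh) (PT.const 1)) hn.length))

theorem PT_seg {F : α → List Cir} {n : α → Cir} {x h : α → List ℕ} (hF : PT A F) (hn : PT A n)
    (hx : PT A x) (hh : PT A h) : PT A (fun a => seg (F a) (n a) (x a) (h a)) := by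
  unfold seg
  exact PT.ite (p := fun a => decide (n a ∈ F a) = true)
    ((PT_memCir hF hn).congr fun a => by simp) (PT_trav hn hx hh) hn

/-- The function `pk` is computable. -/
def PTpk (A : Set Word) : Prop := PT A (fun p : ℕ × List Cir × Cir × Cir =>
  pk p.1 p.2.1 p.2.2.1 p.2.2.2)

theorem PT_arcsY (hpk : PTpk A) {B : α → ℕ} {F κ : α → List Cir} (hB : PT A B) (hF : PT A F)
    (hκ : PT A κ) : PT A (fun a => arcsY (B a) (F a) (κ a)) := by
  unfold arcsY
  refine PT.map (f := fun a e => (e, pk (B a) (F a) e.1 e.2)) (PT_cprsG [] hκ) ?_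
  exact PT.pair PT.snd' (hpk.comp ((hB.comp PT.fst').pair ((hF.comp PT.fst').pair
    (PT.snd'.fst.pair PT.snd'.snd))))

theorem PT_walkY (hpk : PTpk A) {B : α → ℕ} {F κ : α → List Cir} (hB : PT A B) (hF : PT A F)
    (hκ : PT A κ) : PT A (fun a => walkY (B a) (F a) (κ a)) := by
  unfold walkY
  refine PT.flatten (PT.map (f := fun a (f : ((Cir × Cir) × ((List ℕ × ℕ) × (List ℕ × ℕ))) ×
    ((Cir × Cir) × ((List ℕ × ℕ) × (List ℕ × ℕ)))) => seg (F a) f.1.1.2 f.1.2.2.1 f.2.2.1.1)
    (PT_cprsG _ (PT_arcsY hpk hB hF hκ)) ?_)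
  exact PT_seg (hF.comp PT.fst') PT.snd'.fst.fst.snd PT.snd'.fst.snd.snd.fst
    PT.snd'.snd.snd.fst.fst

theorem PT_ycs {M : α → List (List ℕ)} {N : α → List Cir} {P : α → List ℕ} (hM : PT A M)
    (hN : PT A N) (hP : PT A P) : PT A (fun a => ycs (M a) (N a) (P a)) := by
  unfold ycs
  refine PT.map (f := fun a κ => κ.map (fun i => (N a).getD i [])) (PT_joinFold hN.length
    (PBd.length hN) (PT_arcsS hM hP hN.length (PBd.length hN))) ?_
  exact PT.map (f := fun (q : α × List ℕ) i => (N q.1).getD i []) PT.snd'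
    (PT.getD ((hN.comp PT.fst').comp PT.fst') PT.snd' (PT.const []))

/-- The functions `nodes` and `gmat` are computable. -/
def PTnodes (A : Set Word) : Prop := PT A (fun p : List Cir × List Cir => nodes p.1 p.2)

/-- The matrix is computable. -/
def PTgmat (A : Set Word) : Prop := PT A (fun p : ℕ × List Cir × List Cir =>
  gmat p.1 p.2.1 p.2.2)

theorem PT_walks0 (hpk : PTpk A) (hno : PTnodes A) (hgm : PTgmat A) {B : α → ℕ}
    {L F : α → List Cir} {P : α → List ℕ} (hB : PT A B) (hL : PT A L) (hF : PT A F)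
    (hP : PT A P) : PT A (fun a => walks0 (B a) (L a) (F a) (P a)) := by
  unfold walks0
  have h1 : PT A (fun a => nodes (L a) (F a)) := hno.comp (hL.pair hF)
  have h2 : PT A (fun a => gmat (B a) (F a) (nodes (L a) (F a))) :=
    hgm.comp (hB.pair (hF.pair h1))
  refine PT.append (PT.filter (f := fun a c => !decide (c ∈ F a)) hL
    (PT_memCir (hF.comp PT.fst') PT.snd').not) ?_
  exact PT.map (f := fun a κ => walkY (B a) (F a) κ) (PT_ycs h2 h1 hP)
    (PT_walkY hpk (hB.comp PT.fst') (hF.comp PT.fst') PT.snd')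

theorem spliceAll_eq (ws : List Cir) : Y.spliceAll ws = H70.spliceAll ws := rfl

theorem PT_spliceAll {ws : α → List Cir} (hw : PT A ws) : PT A (fun a => Y.spliceAll (ws a)) :=
  (H70.PT_spliceAll hw).congr fun a => (spliceAll_eq (ws a)).symm

/-! ### Output -/

theorem PT_laps {c : α → Cir} (hc : PT A c) : PT A (fun a => laps (c a)) := by
  unfold laps
  exact PT.flatten (PT.replicate (PT.const 4) (PBd.const 4)
    (PT.take (PT_mergeL hc) (PT_cycW hc)))

theorem PT_spre {c : α → Cir} {w : α → List ℕ} (hc : PT A c) (hw : PT A w) :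
    PT A (fun a => spre (c a) (w a)) := by
  unfold spre
  have hl : PT A (fun a => (List.range ((w a).length + 1)).map (fun l => (w a).take l)) :=
    PT.map (f := fun a l => (w a).take l) (PT.range (PT.add hw.length (PT.const 1))
      ((PBd.length hw).add (PBd.const 1))) (PT.take (hw.comp PT.fst') PT.snd')
  refine PT.optGetD (PT.find? (f := fun a u => (c a).all (fun s => infB s u)) hl ?_)
    (PT_mergeL hc)
  exact PT.all (f := fun (p : α × List ℕ) s => infB s p.2) (hc.comp PT.fst')
    (PT_infB PT.snd' PT.fst'.snd)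

theorem PT_cnds {L : α → List Cir} {c : α → Cir} (hL : PT A L) (hc : PT A c) :
    PT A (fun a => cnds (L a) (c a)) := by
  unfold cnds
  have hW := PT_cycW hc
  have hWb : PBd (fun a => cycW (c a)) := (PBd.length (PT_mergeL hc)).mono fun a =>
    cycW_le_length _
  refine PT.append (PT.map (f := fun a i => spre (c a) ((laps (c a)).drop i))
    (PT.range hW hWb) ?_) (PT.map (f := fun _ d => mergeL d) (PT.filter
      (f := fun a d => (c a).all (fun s => decide (s ∈ d))) hL ?_) (PT_mergeL PT.snd'))
  · exact PT_spre (hc.comp PT.fst') (PT.drop (PT_laps (hc.comp PT.fst')) PT.snd')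
  · exact PT.all (f := fun (p : α × Cir) s => decide (s ∈ p.2)) (hc.comp PT.fst')
      (PT_memStr PT.fst'.snd PT.snd')

theorem PT_outW {L : α → List Cir} {c : α → Cir} (hL : PT A L) (hc : PT A c) :
    PT A (fun a => outW (L a) (c a)) := by
  unfold outW
  exact PT_shortest (PT_cnds hL hc) (PT_mergeL hc)

theorem PT_bnd {S : α → List (List ℕ)} (hS : PT A S) : PT A (fun a => bnd (S a)) := by
  unfold bnd
  exact PT.add (PT.length (PT.flatten hS)) (PT.const 1)

theorem PBd_bnd {S : α → List (List ℕ)} (hS : PT A S) : PBd (fun a => bnd (S a)) :=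
  (PBd.length (PT.flatten hS)).add (PBd.const 1)

theorem PT_outF (hpk : PTpk A) (hno : PTnodes A) (hgm : PTgmat A) {S : α → List (List ℕ)}
    {L F : α → List Cir} {P : α → List ℕ} (hS : PT A S) (hL : PT A L) (hF : PT A F)
    (hP : PT A P) : PT A (fun a => outF (S a) (L a) (F a) (P a)) := by
  unfold outF
  exact PT.flatten (PT.map (f := fun a c => outW (L a) c)
    (PT_spliceAll (PT_walks0 hpk hno hgm (PT_bnd hS) hL hF hP))
    (PT_outW (hL.comp PT.fst') PT.snd'))

theorem PT_algY (hpk : PTpk A) (hno : PTnodes A) (hgm : PTgmat A)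
    {asg : List Unit × List (List ℕ) → List ℕ} {cover : List (List ℕ) → List Cir}
    (hc : PT A cover)
    (h1 : PT A (fun S : List (List ℕ) => selF asg (bnd S) (cover S)))
    (h2 : PT A (fun S : List (List ℕ) => lastP asg S (cover S))) :
    PT A (algY asg cover) :=
  PT_outF (S := fun S => S) (L := fun S => cover S) (F := fun S => selF asg (bnd S) (cover S))
    (P := fun S => lastP asg S (cover S)) hpk hno hgm PT.id hc h1 h2

end Vale.Agent.P333.H514
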