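import Vale.Agent.P333.H514.PTword
import Vale.Agent.P333.H802.PTsel2

set_option linter.all false

/-!
P333, ratio `2`: the algorithm runs in polynomial time.
-/

namespace Vale.Agent.P333.Y

open Vale.Agent.P333 Vale.Agent.P333.U Vale.Agent.P333.E Vale.Agent.P333.G Vale.Agent.Lib.PolyTime

/-- P: polynomial time. -/
theorem partP : PartP := by
  intro asg cover ha hc
  have hpk : H514.PTpk ∅ :=
    H802.PT_pk PT.fst' PT.snd'.fst PT.snd'.snd.fst PT.snd'.snd.snd
  have hno : H514.PTnodes ∅ := H802.PT_nodes PT.fst' PT.snd'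
  have hgm : H514.PTgmat ∅ := H802.PT_gmat PT.fst' PT.snd'.fst PT.snd'.snd
  exact H514.PT_algY hpk hno hgm hc (H802.PT_selF ha (H802.PT_bnd PT.id) (H802.PBd_bnd (A := ∅) PT.id) hc)
    (H802.PT_lastP ha PT.id hc)

end Vale.Agent.P333.Y
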